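import Vale.Agent.P088.H188.RotC

/-!
# P088, Theorem C, row C_NU
-/

open MeasureTheory Set
open scoped ContDiff Matrix

noncomputable section

namespace Vale.Agent.P088.H188

open Vale.Agent.P088.LR Vale.Agent.P088.LR.CF Vale.Agent.P088.LR.CF.H952 Vale.Agent.P088.LR.CC

/-- (C_NU) -/
theorem nu : RowNFC → RowNUC := by
  intro hNF n B
  obtain ⟨C₁, hC₁, H₁⟩ := hNF n ((n : ℝ) ^ (n + 1) * B)
  set A : ℝ := (n : ℝ) ^ (n + 3) with hA
  refine ⟨C₁ * (1 + A) ^ 2, ?_, ?_⟩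
  · have hA0 : 0 ≤ A := by positivity
    exact one_le_mul_of_one_le_of_one_le hC₁ (one_le_pow₀ (by linarith))
  intro ξ e p he hp hep heξ hpξ X hX hξX Ω φ q₀ t q Bt hB a ha hs hCa
  have hn : 1 ≤ n := by
    rcases Nat.eq_zero_or_pos n with h0 | h0
    · subst h0
      exfalso
      unfold nr at he
      simp at he
    · exact h0
  have hn1 : (1 : ℝ) ≤ n := by exact_mod_cast hn
  have hA1 : 1 ≤ A := one_le_pow₀ hn1
  have hA0 : 0 ≤ A := by linarith
  have hC0 : 0 ≤ C₁ := by linarith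
  have hCC : C₁ ≤ C₁ * (1 + A) ^ 2 := le_mul_of_one_le_right hC0 (one_le_pow₀ (by linarith))
  have hX0 : 0 < X := by linarith
  have i₀ : Fin n := ⟨0, hn⟩
  obtain ⟨R, h, hR⟩ := exists_refl i₀ e he
  have hR' : ∀ a, R i₀ a = e a := fun a => by rw [h.sy i₀ a, hR]
  have e1 : (R *ᵥ ξ) i₀ = 0 := by
    simp only [Matrix.mulVec, dotProduct, hR', heξ]
  have e2 : (R *ᵥ p) i₀ = 0 := by
    simp only [Matrix.mulVec, dotProduct, hR', hep]
  have e3 : nr (R *ᵥ p) = 1 := by rw [nr_mv h, hp]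
  have e4 : ∑ j, (R *ᵥ p) j * (R *ᵥ ξ) j = 0 := by
    rw [dot h, mv_mv h, hpξ]
  have e5 : nr (R *ᵥ ξ) = nr ξ := nr_mv h ξ
  have hs' := sz_tr h hn Bt.sm Bt.ba.sq Bt.sq hs
  have key := H₁ i₀ (R *ᵥ ξ) (R *ᵥ p) e1 e2 e3 e4 X (hCC.trans hX) (by rw [e5]; exact hξX)
    (rho R ⁻¹' Ω) (fun x => φ (rho R x)) (fun x => q₀ (rho R x)) (tr R t)
    (fun x => q (rho R x)) (bt_tr h Bt) (cl_cx h hn Bt.ba.sq hB) (A * a) (by positivity) hs'
    (by
      calc C₁ * X * (A * a) = C₁ * A * (X * a) := by ring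
        _ ≤ C₁ * (1 + A) ^ 2 * (X * a) := by
            refine mul_le_mul_of_nonneg_right ?_ (by positivity)
            exact mul_le_mul_of_nonneg_left (by nlinarith) hC0
        _ = C₁ * (1 + A) ^ 2 * X * a := by ring
        _ ≤ 1 := hCa)
  rw [qf_tr h Bt, norm_mul, norm_ph, one_mul, e5] at key
  have e6 : (fun a => ∑ j, (⟨if j = i₀ then 1 else 0, (R *ᵥ p) j⟩ : ℂ) * (R j a : ℂ)) =
      fun a => (⟨e a, p a⟩ : ℂ) := by
    funext a
    have e7 : ∀ j, (⟨if j = i₀ then 1 else 0, (R *ᵥ p) j⟩ : ℂ) * (R j a : ℂ) =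
        ⟨(if j = i₀ then 1 else 0) * R j a, (R *ᵥ p) j * R j a⟩ := by
      intro j
      apply Complex.ext <;> simp
    apply Complex.ext
    · rw [Complex.re_sum]
      simp only [e7]
      simp [hR']
    · rw [Complex.im_sum]
      simp only [e7]
      have e8 : (R *ᵥ (R *ᵥ p)) a = ∑ j, (R *ᵥ p) j * R j a := by
        show ∑ j, R a j * (R *ᵥ p) j = _
        refine Finset.sum_congr rfl fun j _ => ?_
        rw [h.sy a j]
        ring
      rw [← e8, mv_mv h]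
  rw [e6] at key
  refine key.trans ?_
  have hnr0 : 0 ≤ nr ξ := Real.sqrt_nonneg _
  calc C₁ * (1 + nr ξ) ^ 2 * (A * a / X + X * (A * a) ^ 2)
      = C₁ * (1 + nr ξ) ^ 2 * (A * (a / X) + A ^ 2 * (X * a ^ 2)) := by ring
    _ ≤ C₁ * (1 + nr ξ) ^ 2 * ((1 + A) ^ 2 * (a / X) + (1 + A) ^ 2 * (X * a ^ 2)) := by
        refine mul_le_mul_of_nonneg_left ?_ (by positivity)
        refine add_le_add (mul_le_mul_of_nonneg_right (by nlinarith) (by positivity))
          (mul_le_mul_of_nonneg_right (by nlinarith) (by positivity))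
    _ = C₁ * (1 + A) ^ 2 * (1 + nr ξ) ^ 2 * (a / X + X * a ^ 2) := by ring

end Vale.Agent.P088.H188
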