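import Vale.Agent.P088.H442.Defs3
import Vale.Agent.P088.H198.Defs3
import Vale.Agent.P088.H72.Norm
import Vale.Agent.P088.H925.Scale

/-!
# P088, Theorem D, row D_MET: bounds of `φ₂` and `t` in terms of the metric
-/

open MeasureTheory Set
open scoped ContDiff Matrix

noncomputable section

namespace Vale.Agent.P088.H188

open Vale.Agent.P088.LR Vale.Agent.P088.LR.CF Vale.Agent.P088.LR.H72 Vale.Agent.P088.LR.H925

variable {n : ℕ}

/-- Composition with a function which is smooth on an open set: bound at one point. -/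
theorem big_comp {ι : Type*} [Fintype ι] (t : Set (ι → ℝ)) (ht : IsOpen t) (Ψ : (ι → ℝ) → ℝ)
    (hΨ : ContDiffOn ℝ ∞ Ψ t) (S : Set (ι → ℝ)) (hS : IsCompact S) (hSt : S ⊆ t) (k : ℕ) (B : ℝ) :
    ∃ C : ℝ, 1 ≤ C ∧ ∀ f : V n → ι → ℝ, ContDiff ℝ ∞ f → (∀ x, f x ∈ t) → ∀ x, f x ∈ S →
      (∀ a, ∀ l ≤ k, ‖iteratedFDeriv ℝ l (fun y => f y a) x‖ ≤ B) →
      ∀ l ≤ k, ‖iteratedFDeriv ℝ l (fun y => Ψ (f y)) x‖ ≤ C := by
  have hCe : ∃ C : ℝ, 0 ≤ C ∧ ∀ i ≤ k, ∀ p ∈ S, ‖iteratedFDerivWithin ℝ i Ψ t p‖ ≤ C := by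
    have h1 : ∀ i, ∃ C : ℝ, ∀ p ∈ S, ‖iteratedFDerivWithin ℝ i Ψ t p‖ ≤ C := fun i =>
      hS.exists_bound_of_continuousOn
        ((hΨ.continuousOn_iteratedFDerivWithin (m := i) (by exact_mod_cast le_top)
          ht.uniqueDiffOn).mono hSt)
    choose C hC using h1
    refine ⟨∑ i ∈ Finset.range (k + 1), |C i|, by positivity, fun i hi p hp => ?_⟩
    refine (hC i p hp).trans ((le_abs_self _).trans ?_)
    exact Finset.single_le_sum (f := fun i => |C i|) (fun _ _ => abs_nonneg _)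
      (Finset.mem_range.2 (by omega))
  obtain ⟨C, hC0, hC⟩ := hCe
  have hD1 : 1 ≤ max 1 B := le_max_left _ _
  have hD0 : 0 ≤ max 1 B := zero_le_one.trans hD1
  refine ⟨1 + k.factorial * C * max 1 B ^ k, ?_, fun f hf hft x hx hB l hl => ?_⟩
  · have : 0 ≤ (k.factorial : ℝ) * C * max 1 B ^ k := by positivity
    linarith
  have hrange : Set.range f ⊆ t := by rintro _ ⟨x, rfl⟩; exact hft x
  have key : ‖iteratedFDeriv ℝ l (Ψ ∘ f) x‖ ≤ l.factorial * C * max 1 B ^ l := by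
    refine norm_iteratedFDeriv_comp_le' hrange ht.uniqueDiffOn hΨ hf
      (by exact_mod_cast le_top) x (fun i hi => hC i (hi.trans hl) _ hx) ?_
    intro i hi1 hi2
    refine iter_pi_le hf i x (by positivity) fun a => ?_
    refine (hB a i (hi2.trans hl)).trans ((le_max_right 1 B).trans ?_)
    calc max 1 B = max 1 B ^ 1 := (pow_one _).symm
      _ ≤ max 1 B ^ i := pow_le_pow_right₀ hD1 hi1
  refine key.trans ?_
  have h3 : (l.factorial : ℝ) ≤ k.factorial := by exact_mod_cast Nat.factorial_le hl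
  have h4 : max 1 B ^ l ≤ max 1 B ^ k := pow_le_pow_right₀ hD1 hl
  have h5 : (l.factorial : ℝ) * C * max 1 B ^ l ≤ k.factorial * C * max 1 B ^ k :=
    mul_le_mul (mul_le_mul_of_nonneg_right h3 hC0) h4 (by positivity) (by positivity)
  linarith

/-- The scaled function, at one point. -/
theorem iter_ps {F : Type*} [NormedAddCommGroup F] [NormedSpace ℝ F] {f : V n → F}
    (hf : ContDiff ℝ ∞ f) {k l : ℕ} (hl : l ≤ k) {t : ℝ} (ht : 0 < t) (x : V n) :
    ‖iteratedFDeriv ℝ l (fun y => f (ps t y)) x‖ ≤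
      max 1 t ^ k * ‖iteratedFDeriv ℝ l f (ps t x)‖ := by
  have h1 : iteratedFDeriv ℝ l (fun y => f (ps t y)) x =
      iteratedFDeriv ℝ l (fun z => f (t • z)) (x - fun _ => (1 / 2 : ℝ)) := by
    have := iteratedFDeriv_comp_sub' (𝕜 := ℝ) (f := fun z => f (t • z)) l (fun _ => (1 / 2 : ℝ))
    exact congrFun this x
  have h2 : iteratedFDeriv ℝ l (fun z => f (t • z)) (x - fun _ => (1 / 2 : ℝ)) =
      (iteratedFDeriv ℝ l f (ps t x)).compContinuousLinearMap
        fun _ => t • ContinuousLinearMap.id ℝ (V n) := by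
    have := ContinuousLinearMap.iteratedFDeriv_comp_right (t • ContinuousLinearMap.id ℝ (V n))
      (f := f) (n := ∞) hf (x - fun _ => (1 / 2 : ℝ)) (i := l) (by exact_mod_cast le_top)
    exact this
  rw [h1, h2]
  refine (ContinuousMultilinearMap.norm_compContinuousLinearMap_le _ _).trans ?_
  have h3 : ‖t • ContinuousLinearMap.id ℝ (V n)‖ ≤ max 1 t := by
    rw [norm_smul, Real.norm_of_nonneg ht.le]
    calc t * ‖ContinuousLinearMap.id ℝ (V n)‖ ≤ t * 1 := by
          gcongr; exact ContinuousLinearMap.norm_id_le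
      _ ≤ _ := by rw [mul_one]; exact le_max_right _ _
  rw [Finset.prod_const, Finset.card_univ, Fintype.card_fin, mul_comm]
  gcongr
  calc ‖t • ContinuousLinearMap.id ℝ (V n)‖ ^ l ≤ max 1 t ^ l := by gcongr
      _ ≤ max 1 t ^ k := pow_le_pow_right₀ (le_max_left _ _) hl

/-- From bounds on `Ω` to bounds everywhere. -/
theorem cl_split {F : Type*} [NormedAddCommGroup F] [NormedSpace ℝ F] {k : ℕ} {C C' : ℝ}
    {Ω : Set (V n)} {f f₀ : V n → F} (hf : ContDiff ℝ ∞ f)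
    (h : ∀ l ≤ k, ∀ x ∈ Ω, ‖iteratedFDeriv ℝ l f x‖ ≤ C) (h₀ : Cl k C' f₀)
    (he : ∀ x ∉ Ω, f x = f₀ x) : Cl k (max C C') f := by
  intro l hl x
  by_cases hx : x ∈ closure Ω
  · have h1 : IsClosed {x | ‖iteratedFDeriv ℝ l f x‖ ≤ C} :=
      isClosed_le (hf.continuous_iteratedFDeriv (m := l) (by exact_mod_cast le_top)).norm
        continuous_const
    have h2 : closure Ω ⊆ {x | ‖iteratedFDeriv ℝ l f x‖ ≤ C} :=
      closure_minimal (fun y hy => h l hl y hy) h1
    exact (h2 hx).trans (le_max_left _ _)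
  · have h1 : f =ᶠ[nhds x] f₀ := by
      filter_upwards [isClosed_closure.isOpen_compl.mem_nhds hx] with y hy
      exact he y fun hh => hy (subset_closure hh)
    rw [(h1.iteratedFDeriv ℝ l).eq_of_nhds]
    exact (h₀ l hl x).trans (le_max_right _ _)

theorem isCompact_bal : IsCompact (bal n) := by
  have h1 : IsClosed (bal n) := isClosed_le
    (continuous_finsetSum _ fun j _ => ((continuous_apply j).sub continuous_const).pow 2)
    continuous_const
  refine (isCompact_Icc (a := fun _ : Fin n => (0 : ℝ)) (b := fun _ => 1)).of_isClosed_subset h1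
    fun x hx => ?_
  have h2 : ∀ j, |x j - 1 / 2| ≤ 1 / 4 := by
    intro j
    have h3 : (x j - 1 / 2) ^ 2 ≤ ∑ j, (x j - 1 / 2) ^ 2 :=
      Finset.single_le_sum (f := fun j => (x j - 1 / 2) ^ 2) (fun i _ => sq_nonneg _)
        (Finset.mem_univ j)
    have h4 : ∑ j, (x j - 1 / 2) ^ 2 ≤ 1 / 16 := hx
    exact abs_le_of_sq_le_sq (by linarith) (by norm_num)
  exact ⟨fun j => by linarith [(abs_le.1 (h2 j)).1], fun j => by linarith [(abs_le.1 (h2 j)).2]⟩

/-- A smooth function which is constant off the ball has bounded derivatives. -/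
theorem exists_cl {F : Type*} [NormedAddCommGroup F] [NormedSpace ℝ F] {f : V n → F}
    (hf : ContDiff ℝ ∞ f) (c : F) (h : ∀ x ∉ bal n, f x = c) (k : ℕ) : ∃ C : ℝ, 0 ≤ C ∧ Cl k C f := by
  have h1 : ∀ l, ∃ C : ℝ, ∀ x ∈ bal n, ‖iteratedFDeriv ℝ l f x‖ ≤ C := fun l =>
    isCompact_bal.exists_bound_of_continuousOn
      (hf.continuous_iteratedFDeriv (m := l) (by exact_mod_cast le_top)).continuousOn
  choose C hC using h1
  have h2 : Cl k ‖c‖ (fun _ : V n => c) := by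
    intro l _ x
    rcases Nat.eq_zero_or_pos l with rfl | hl
    · rw [norm_iteratedFDeriv_zero]
    · rw [iteratedFDeriv_const_of_ne (by omega)]
      simp
  have h3 : ∀ l ≤ k, ∀ x ∈ bal n, ‖iteratedFDeriv ℝ l f x‖ ≤
      ∑ i ∈ Finset.range (k + 1), |C i| := by
    intro l hl x hx
    refine (hC l x hx).trans ((le_abs_self _).trans ?_)
    exact Finset.single_le_sum (f := fun i => |C i|) (fun _ _ => abs_nonneg _)
      (Finset.mem_range.2 (by omega))
  exact ⟨_, le_max_of_le_right (norm_nonneg c), cl_split hf h3 h2 h⟩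

/-- Real functions as complex functions. -/
theorem iter_ofReal {f : V n → ℝ} (hf : ContDiff ℝ ∞ f) (l : ℕ) (x : V n) :
    ‖iteratedFDeriv ℝ l (fun y => ((f y : ℝ) : ℂ)) x‖ ≤ ‖iteratedFDeriv ℝ l f x‖ := by
  have h1 : (fun y => ((f y : ℝ) : ℂ)) = Complex.ofRealLI ∘ f := rfl
  rw [h1, Complex.ofRealLI.norm_iteratedFDeriv_comp_left (hf.contDiffAt (x := x))
    (by exact_mod_cast le_top)]

/-! ## Functions of the matrix -/

/-- The matrix of a point. -/
def mt (p : Fin n × Fin n → ℝ) : Matrix (Fin n) (Fin n) ℝ := Matrix.of fun i j => p (i, j)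

/-- Positive determinant. -/
def Pd (n : ℕ) : Set (Fin n × Fin n → ℝ) := {p | 0 < (mt p).det}

/-- Bounded matrices with determinant at least `B⁻¹`. -/
def Kd (n : ℕ) (B b : ℝ) : Set (Fin n × Fin n → ℝ) := {p | (∀ a, |p a| ≤ B) ∧ b ≤ (mt p).det}

theorem cd_mt : ∀ i j, ContDiff ℝ ∞ fun p : Fin n × Fin n → ℝ => mt p i j := fun i j =>
  contDiff_apply ℝ ℝ (i, j)

theorem cd_mdet : ContDiff ℝ ∞ fun p : Fin n × Fin n → ℝ => (mt p).det := cd_det cd_mt

theorem isOpen_Pd : IsOpen (Pd n) := isOpen_lt continuous_const cd_mdet.continuous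

theorem isCompact_Kd (B b : ℝ) : IsCompact (Kd n B b) := by
  have h1 : Kd n B b = Set.Icc (fun _ => -B) (fun _ => B) ∩ {p | b ≤ (mt p).det} := by
    ext p
    simp only [Kd, Set.mem_ofPred_eq, Set.mem_inter_iff, Set.mem_Icc, Pi.le_def, abs_le, forall_and]
  rw [h1]
  exact isCompact_Icc.inter_right (isClosed_le continuous_const cd_mdet.continuous)

theorem Kd_sub {B b : ℝ} (hb : 0 < b) : Kd n B b ⊆ Pd n := fun _ hp => lt_of_lt_of_le hb hp.2

/-- `det ^ α` -/
theorem cd_pow (α : ℝ) : ContDiffOn ℝ ∞ (fun p : Fin n × Fin n → ℝ => (mt p).det ^ α) (Pd n) :=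
  fun p hp => ((cd_mdet.contDiffAt (x := p)).rpow_const_of_ne (ne_of_gt hp)).contDiffWithinAt

theorem cd_sqp (α : ℝ) :
    ContDiffOn ℝ ∞ (fun p : Fin n × Fin n → ℝ => √((mt p).det ^ α)) (Pd n) :=
  (cd_pow α).sqrt fun _ hp => ne_of_gt (Real.rpow_pos_of_pos hp α)

/-- the entries of `det ^ α • p⁻¹ - 1` -/
theorem cd_tent (α : ℝ) (i j : Fin n) : ContDiffOn ℝ ∞ (fun p : Fin n × Fin n → ℝ =>
    (mt p).det ^ α * (((mt p).det)⁻¹ * (mt p).adjugate i j)
      - (1 : Matrix (Fin n) (Fin n) ℝ) i j) (Pd n) := by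
  refine ContDiffOn.sub ((cd_pow α).mul ((cd_mdet.contDiffOn.inv fun _ hp => ne_of_gt hp).mul
    (cd_adj cd_mt i j).contDiffOn)) contDiffOn_const

end Vale.Agent.P088.H188
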