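import Vale.Agent.P088.H188.MetA

/-!
# P088, Theorem D, row D_MET: pointwise algebra
-/

open MeasureTheory Set
open scoped ContDiff Matrix

noncomputable section

namespace Vale.Agent.P088.H188.DM

open Vale.Agent.P088.LR Vale.Agent.P088.LR.CF Vale.Agent.P088.LR.H72 Vale.Agent.P088.H188

variable {n : ℕ}

theorem inv_apply' {M : Matrix (Fin n) (Fin n) ℝ} (h : 0 < M.det) (i j : Fin n) :
    M⁻¹ i j = (M.det)⁻¹ * M.adjugate i j := by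
  rw [Matrix.inv_def, Ring.inverse_eq_inv', Matrix.smul_apply, smul_eq_mul]

theorem inv_bd (n : ℕ) {B : ℝ} (hB : 0 < B) : ∃ C : ℝ, 0 ≤ C ∧
    ∀ M : Matrix (Fin n) (Fin n) ℝ, (∀ i j, |M i j| ≤ B) → B⁻¹ ≤ M.det →
    ∀ i j, |M⁻¹ i j| ≤ C := by
  have h1 : ∀ b : Fin n × Fin n, ∃ C : ℝ, ∀ p ∈ Kd n B B⁻¹,
      ‖((mt p).det)⁻¹ * (mt p).adjugate b.1 b.2‖ ≤ C := fun b =>
    (isCompact_Kd B B⁻¹).exists_bound_of_continuousOn
      ((cd_mdet.continuous.continuousOn.inv₀ fun p hp =>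
        ne_of_gt (Kd_sub (inv_pos.2 hB) hp)).mul (cd_adj cd_mt b.1 b.2).continuous.continuousOn)
  choose C hC using h1
  refine ⟨∑ b, |C b|, Finset.sum_nonneg fun b _ => abs_nonneg _, fun M hM hd i j => ?_⟩
  have h2 : (fun b : Fin n × Fin n => M b.1 b.2) ∈ Kd n B B⁻¹ := ⟨fun b => hM b.1 b.2, hd⟩
  have h3 := hC (i, j) _ h2
  rw [inv_apply' ((inv_pos.2 hB).trans_le hd), ← Real.norm_eq_abs]
  refine h3.trans ((le_abs_self _).trans ?_)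
  exact Finset.single_le_sum (f := fun b => |C b|) (fun b _ => abs_nonneg _)
    (Finset.mem_univ (i, j))

theorem met_sm (n : ℕ) {B : ℝ} (hB : 0 < B) : ∃ C : ℝ, 0 ≤ C ∧
    ∀ M : Matrix (Fin n) (Fin n) ℝ, (∀ i j, |M i j| ≤ B) → B⁻¹ ≤ M.det → ∀ ε, 0 ≤ ε →
    (∀ i j, |M i j - (M.det ^ (1 / (n : ℝ)) • (1 : Matrix (Fin n) (Fin n) ℝ)) i j| ≤ ε) →
    ∀ i j, |(M.det ^ (1 / (n : ℝ)) • M⁻¹) i j - (1 : Matrix (Fin n) (Fin n) ℝ) i j| ≤ C * ε := by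
  obtain ⟨C, hC, H⟩ := inv_bd n hB
  refine ⟨n * C, by positivity, fun M hM hd ε hε h i j => ?_⟩
  have hu : IsUnit M.det := isUnit_iff_ne_zero.mpr ((inv_pos.2 hB).trans_le hd).ne'
  have h1 : M.det ^ (1 / (n : ℝ)) • M⁻¹ - 1 =
      M⁻¹ * (M.det ^ (1 / (n : ℝ)) • (1 : Matrix (Fin n) (Fin n) ℝ) - M) := by
    rw [Matrix.mul_sub, Matrix.mul_smul, Matrix.mul_one, Matrix.nonsing_inv_mul _ hu]
  rw [← Matrix.sub_apply, h1, Matrix.mul_apply]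
  refine (Finset.abs_sum_le_sum_abs _ _).trans ?_
  calc ∑ l, |M⁻¹ i l * (M.det ^ (1 / (n : ℝ)) • (1 : Matrix (Fin n) (Fin n) ℝ) - M) l j|
      ≤ ∑ _l : Fin n, C * ε := by
        refine Finset.sum_le_sum fun l _ => ?_
        rw [abs_mul]
        refine mul_le_mul (H M hM hd i l) ?_ (abs_nonneg _) hC
        rw [Matrix.sub_apply, abs_sub_comm]
        exact h l j
    _ = n * C * ε := by simp; ring

theorem met_fac {M : Matrix (Fin n) (Fin n) ℝ} (h : 0 < M.det) (hn : 1 ≤ n) :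
    √M.det • M⁻¹ = (M.det ^ (((n : ℝ) - 2) / (4 * n))) ^ 2 • (M.det ^ (1 / (n : ℝ)) • M⁻¹) := by
  have hn0 : (n : ℝ) ≠ 0 := by
    have : (1 : ℝ) ≤ n := by exact_mod_cast hn
    linarith
  rw [smul_smul, ← Real.rpow_natCast (M.det ^ (((n : ℝ) - 2) / (4 * n))) 2, ← Real.rpow_mul h.le,
    ← Real.rpow_add h, Real.sqrt_eq_rpow]
  congr 2
  field_simp
  push_cast
  ring

end Vale.Agent.P088.H188.DM
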