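import Vale.Agent.P088.H833.D.Defs
import Vale.Agent.P088.H442.C.Met
import Vale.Agent.P088.H292.BdM
import Vale.Agent.P088.H188.MetE
import Vale.Agent.P088.H188.MetA

/-!
# P088, Theorem D, row D_MET: metrics, domains of any size
-/

open MeasureTheory Set
open scoped ContDiff Matrix

noncomputable section

namespace Vale.Agent.P088.H188

open Vale.Agent.P088.LR Vale.Agent.P088.LR.CF Vale.Agent.P088.LR.CC Vale.Agent.P088.LR.CD
  Vale.Agent.P088.LR.H925 Vale.Agent.P088.H292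

variable {n : ℕ}

theorem sc_pow {c : ℝ} (hc : 0 < c) (hn : 1 ≤ n) :
    (c • (1 : Matrix (Fin n) (Fin n) ℝ)).det ^ (((n : ℝ) - 2) / (4 * n)) =
      √(√(c ^ n) * c⁻¹) := by
  have hn0 : (n : ℝ) ≠ 0 := by
    have : (1 : ℝ) ≤ n := by exact_mod_cast hn
    linarith
  rw [Matrix.det_smul, Matrix.det_one, mul_one, Fintype.card_fin, ← Real.rpow_natCast c n,
    ← Real.rpow_mul hc.le, Real.sqrt_eq_rpow, Real.sqrt_eq_rpow, ← Real.rpow_mul hc.le,
    ← Real.rpow_neg_one c, ← Real.rpow_add hc, ← Real.rpow_mul hc.le]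
  congr 1
  field_simp
  ring

theorem sc_inv {c : ℝ} (hc : 0 < c) (hn : 1 ≤ n) :
    (c • (1 : Matrix (Fin n) (Fin n) ℝ)).det ^ (1 / (n : ℝ)) •
      (c • (1 : Matrix (Fin n) (Fin n) ℝ))⁻¹ = 1 := by
  have hn0 : (n : ℝ) ≠ 0 := by
    have : (1 : ℝ) ≤ n := by exact_mod_cast hn
    linarith
  have h1 : (c • (1 : Matrix (Fin n) (Fin n) ℝ))⁻¹ = c⁻¹ • (1 : Matrix (Fin n) (Fin n) ℝ) := by
    refine Matrix.inv_eq_right_inv ?_
    rw [Matrix.smul_mul, Matrix.mul_smul, smul_smul, mul_inv_cancel₀ hc.ne', one_smul,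
      Matrix.mul_one]
  rw [h1, Matrix.det_smul, Matrix.det_one, mul_one, Fintype.card_fin, ← Real.rpow_natCast c n,
    ← Real.rpow_mul hc.le, mul_one_div_cancel hn0, Real.rpow_one, smul_smul,
    mul_inv_cancel₀ hc.ne', one_smul]

/-- (D_MET) -/
theorem metd : RowTOPD → RowMETD := by
  intro hT n hn
  obtain ⟨k, hk⟩ := hT n hn
  refine ⟨k, fun R hR c hc B hB => ?_⟩
  have hn1 : 1 ≤ n := by omega
  obtain ⟨t, ht⟩ : ∃ t : ℝ, t = 8 * (n + 1) * R := ⟨_, rfl⟩
  have ht0 : 0 < t := by rw [ht]; positivity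
  obtain ⟨σ', hσ'⟩ : ∃ σ' : V n → ℝ, σ' = bs442 t c := ⟨_, rfl⟩
  have hσ's : ContDiff ℝ ∞ σ' := hσ' ▸ bs_smooth442 hc
  have hσ'0 : ∀ y, 0 < σ' y := hσ' ▸ bs_pos442 hc
  obtain ⟨φ, hφ⟩ : ∃ φ : V n → ℝ, φ = fun y => √(σ' y) := ⟨_, rfl⟩
  have hφP : SmP φ := by
    rw [hφ]
    exact ⟨hσ's.sqrt fun x => ne_of_gt (hσ'0 x), fun x => Real.sqrt_pos.2 (hσ'0 x)⟩
  have hφ1 : ∀ y ∉ bal n, φ y = 1 := by
    intro y hy
    rw [hφ, hσ']
    simp only
    rw [bs_one442 hy, Real.sqrt_one]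
  have hφ2 : (fun x => φ x ^ 2) = σ' := by
    funext x
    rw [hφ]
    exact Real.sq_sqrt (hσ'0 x).le
  obtain ⟨c', hc'⟩ : ∃ c' : V n → ℝ, c' = fun y => c (ps t y) := ⟨_, rfl⟩
  have hc's : ContDiff ℝ ∞ c' := hc' ▸ hc.1.comp (contDiff_ps t)
  have hc'0 : ∀ y, 0 < c' y := fun y => by rw [hc']; exact hc.2 _
  have hM1 : 1 ≤ max 1 t ^ k := one_le_pow₀ (le_max_left _ _)
  obtain ⟨B₁, hB₁⟩ : ∃ B₁ : ℝ, B₁ = max 1 t ^ k * B := ⟨_, rfl⟩
  have hBB : B ≤ B₁ := by rw [hB₁]; exact le_mul_of_one_le_left hB.le hM1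
  have hB₁0 : 0 < B₁ := hB.trans_le hBB
  obtain ⟨C₁, hC₁, H₁⟩ := BM.bdd_met n k B₁ hB₁0 (((n : ℝ) - 2) / (4 * n))
  obtain ⟨C₂, hC₂, H₂⟩ := BM.bdd_met n k B₁ hB₁0 (1 / (n : ℝ))
  have hcxφ : ContDiff ℝ ∞ (cx φ) := Complex.ofRealCLM.contDiff.comp hφP.1
  obtain ⟨C₃, hC₃, H₃⟩ := exists_cl hcxφ 1 (fun x hx => by
    show ((φ x : ℝ) : ℂ) = 1
    rw [hφ1 x hx, Complex.ofReal_one]) k
  have hφi : ContDiff ℝ ∞ fun x => (φ x)⁻¹ := hφP.1.inv fun x => (hφP.2 x).ne'
  obtain ⟨C₄, hC₄, H₄⟩ := exists_cl hφi 1 (fun x hx => by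
    rw [hφ1 x hx, inv_one]) 0
  obtain ⟨B', hB'⟩ : ∃ B' : ℝ, B' = C₁ + (C₂ + 1) + C₃ + C₄ := ⟨_, rfl⟩
  obtain ⟨ε₁, hε₁, hrig⟩ := hk φ hφP hφ1 B'
  obtain ⟨C₅, hC₅, H₅⟩ := DM.met_sm n hB
  refine ⟨ε₁ / (C₅ + 1), by positivity, ?_⟩
  intro Ω hΩ hreg hΩR g hg hgp hoff hcl hdet hnear hst
  set Ω' : Set (V n) := ps t ⁻¹' Ω with hΩ'
  have hO' : IsOpen Ω' := hΩ.preimage (contDiff_ps t).continuous
  have hreg' : interior (closure Ω') = Ω' := by
    have e1 := (hm (n := n) t ht0.ne').preimage_closure Ω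
    have e2 := (hm (n := n) t ht0.ne').preimage_interior (closure Ω)
    have e3 : (hm (n := n) t ht0.ne') ⁻¹' Ω = Ω' := rfl
    rw [e1, e3, hreg, e3] at e2
    exact e2.symm
  have hsm : ∀ y ∈ Ω', ∑ j, (y j - 1 / 2) ^ 2 ≤ 1 / 64 := by
    intro y hy
    have h1 : ∀ j, (y j - 1 / 2) ^ 2 ≤ (1 / (8 * (n + 1))) ^ 2 := by
      intro j
      have h2 := hΩR _ hy j
      simp only [ps, Pi.smul_apply, Pi.sub_apply, smul_eq_mul] at h2
      rw [abs_mul, abs_of_pos ht0, ht] at h2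
      have h3 : |y j - 1 / 2| ≤ 1 / (8 * (n + 1)) := by
        rw [le_div_iff₀ (by positivity)]
        have h4 : |y j - 1 / 2| * (8 * (n + 1)) * R ≤ 1 * R := by
          calc |y j - 1 / 2| * (8 * (n + 1)) * R = 8 * (n + 1) * R * |y j - 1 / 2| := by ring
            _ ≤ R := h2
            _ = 1 * R := by ring
        exact le_of_mul_le_mul_right h4 hR
      rw [← sq_abs]
      exact pow_le_pow_left₀ (abs_nonneg _) h3 2
    calc ∑ j, (y j - 1 / 2) ^ 2 ≤ ∑ _j : Fin n, (1 / (8 * ((n : ℝ) + 1))) ^ 2 :=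
          Finset.sum_le_sum fun j _ => h1 j
      _ = n * (1 / (8 * ((n : ℝ) + 1))) ^ 2 := by simp
      _ ≤ 1 / 64 := by
          have hn : (0 : ℝ) ≤ n := Nat.cast_nonneg n
          rw [div_pow, one_pow, mul_one_div, div_le_div_iff₀ (by positivity) (by norm_num)]
          nlinarith
  have hb' : Ω' ⊆ bal n := fun y hy => by
    have := hsm y hy
    show ∑ j, (y j - 1 / 2) ^ 2 ≤ 1 / 16
    linarith
  have hχ1 : ∀ y ∈ Ω', chi442 y = 1 := fun y hy => chi_one442 (hsm y hy)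
  obtain ⟨g', hg'⟩ : ∃ g' : MF n, g' = fun y => g (ps t y) := ⟨_, rfl⟩
  have hg's : SmM g' := fun i j => by rw [hg']; exact (hg i j).comp (contDiff_ps t)
  have hg'p : ∀ y, (g' y).PosDef := fun y => by rw [hg']; exact hgp _
  have hg'off : ∀ y ∉ Ω', g' y = sc c' y := fun y hy => by
    rw [hg', hc']
    exact hoff _ hy
  have hdp : ∀ y, 0 < (g' y).det := fun y => (hg'p y).det_pos
  have hbd : ∀ y ∈ Ω', ∀ i j, ∀ l ≤ k, ‖iteratedFDeriv ℝ l (fun z => g' z i j) y‖ ≤ B₁ := by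
    intro y hy i j l hl
    have h1 := iter_ps (hg i j) hl ht0 y
    have h2 : (fun z => g' z i j) = fun z => (fun x => g x i j) (ps t z) := by rw [hg']
    rw [h2, hB₁]
    exact h1.trans (mul_le_mul_of_nonneg_left (hcl i j l hl _ hy) (by linarith))
  have hdd : ∀ y ∈ Ω', B₁⁻¹ ≤ (g' y).det := by
    intro y hy
    rw [hg']
    exact (inv_anti₀ hB hBB).trans (hdet _ hy)
  -- the tensors
  have hsgs : SmM (sg g') := H442.smM_sg442 hg's hg'p
  have hsgy : ∀ x, (sg g' x).IsSymm := H442.symm_sg442 hg'p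
  have hsmc : ContDiff ℝ ∞ (sgm442 c') := sgm_smooth442 hc's hc'0
  have hσ'on : ∀ y ∈ Ω', σ' y = sgm442 c' y := by
    intro y hy
    rw [hσ']
    unfold bs442
    rw [hχ1 y hy, hc']
    unfold sgm442
    ring
  obtain ⟨φ₂, hφ₂⟩ : ∃ φ₂ : V n → ℝ, φ₂ = fun y =>
    (g' y).det ^ (((n : ℝ) - 2) / (4 * n)) + (φ y - √(sgm442 c' y)) := ⟨_, rfl⟩
  have hsqs : ContDiff ℝ ∞ fun y => √(sgm442 c' y) :=
    hsmc.sqrt fun x => ne_of_gt (sgm_pos442 hc'0 x)
  have hpws : ContDiff ℝ ∞ fun y => (g' y).det ^ (((n : ℝ) - 2) / (4 * n)) :=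
    BM.sm_pow hg's hdp _
  have hφ₂s : ContDiff ℝ ∞ φ₂ := by
    rw [hφ₂]
    exact hpws.add (hφP.1.sub hsqs)
  have hφ₂on : ∀ y ∈ Ω', φ₂ y = (g' y).det ^ (((n : ℝ) - 2) / (4 * n)) := by
    intro y hy
    rw [hφ₂, hφ]
    simp only
    rw [hσ'on y hy, sub_self, add_zero]
  have hφ₂off : ∀ y ∉ Ω', φ₂ y = φ y := by
    intro y hy
    rw [hφ₂]
    simp only
    have h1 : (g' y).det ^ (((n : ℝ) - 2) / (4 * n)) = √(sgm442 c' y) := by
      rw [hg'off y hy]
      exact sc_pow (hc'0 y) hn1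
    rw [h1]
    ring
  have hφ₂0 : ∀ y, 0 < φ₂ y := by
    intro y
    by_cases hy : y ∈ Ω'
    · rw [hφ₂on y hy]
      exact Real.rpow_pos_of_pos (hdp y) _
    · rw [hφ₂off y hy]
      exact hφP.2 y
  obtain ⟨t', ht'⟩ : ∃ t' : MF n, t' = fun y => (g' y).det ^ (1 / (n : ℝ)) • (g' y)⁻¹ := ⟨_, rfl⟩
  have ht'e : ∀ y i j, t' y i j = (g' y).det ^ (1 / (n : ℝ)) * (g' y)⁻¹ i j := by
    intro y i j
    rw [ht']
    rfl
  have ht's : SmM t' := by
    intro i j
    have h1 : (fun y => t' y i j) = fun y => (g' y).det ^ (1 / (n : ℝ)) * (g' y)⁻¹ i j :=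
      funext fun y => ht'e y i j
    rw [h1]
    exact BM.sm_inv hg's hdp _ i j
  have ht'y : ∀ y, (t' y).IsSymm := by
    intro y
    have h1 : ((g' y)⁻¹).IsSymm := by
      have h2 : (g' y).IsSymm := by
        have h3 := (hg'p y).isHermitian
        rwa [Matrix.IsHermitian, Matrix.conjTranspose_eq_transpose_of_trivial] at h3
      unfold Matrix.IsSymm
      rw [Matrix.transpose_nonsing_inv, h2]
    rw [ht']
    exact h1.smul _
  have ht'off : ∀ y ∉ Ω', t' y = 1 := by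
    intro y hy
    rw [ht']
    simp only
    rw [hg'off y hy]
    exact sc_inv (hc'0 y) hn1
  obtain ⟨s', hs'⟩ : ∃ s' : MF n, s' = fun y => φ₂ y ^ 2 • t' y := ⟨_, rfl⟩
  have hs'on : ∀ y ∈ Ω', s' y = sg g' y := by
    intro y hy
    rw [hs', ht']
    simp only
    rw [hφ₂on y hy]
    exact (DM.met_fac (hdp y) hn1).symm
  -- bounds
  have hcl1 : Cl k B' (cx φ₂) := by
    have h1 : Cl k (max C₁ C₃) (cx φ₂) := by
      refine cl_split (Ω := Ω') (f₀ := cx φ) (Complex.ofRealCLM.contDiff.comp hφ₂s)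
        (fun l hl y hy => ?_) H₃ (fun y hy => ?_)
      · refine (iter_ofReal hφ₂s l y).trans ?_
        have h2 : φ₂ =ᶠ[nhds y] fun z => (g' z).det ^ (((n : ℝ) - 2) / (4 * n)) := by
          filter_upwards [hO'.mem_nhds hy] with z hz
          exact hφ₂on z hz
        rw [(h2.iteratedFDeriv ℝ l).eq_of_nhds]
        exact (H₁ g' hg's hdp y (hbd y hy) (hdd y hy)).1 l hl
      · show ((φ₂ y : ℝ) : ℂ) = _
        rw [hφ₂off y hy]
        rfl
    refine H72.cl_mono h1 ?_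
    rw [hB']
    exact max_le (by linarith) (by linarith)
  have hinv : ∀ y, (φ₂ y)⁻¹ ≤ B' := by
    intro y
    by_cases hy : y ∈ Ω'
    · rw [hφ₂on y hy]
      refine (H₁ g' hg's hdp y (hbd y hy) (hdd y hy)).2.1.trans ?_
      rw [hB']
      linarith
    · rw [hφ₂off y hy]
      have h1 := H₄ 0 le_rfl y
      rw [norm_iteratedFDeriv_zero] at h1
      refine (le_abs_self _).trans (h1.trans ?_)
      rw [hB']
      linarith
  have hents : ∀ i j, ContDiff ℝ ∞ fun y => t' y i j - (1 : Matrix (Fin n) (Fin n) ℝ) i j :=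
    fun i j => (ht's i j).sub contDiff_const
  have hcl2 : ∀ i j, Cl k B' (ent t' i j) := by
    intro i j
    have h0 : Cl k 0 (fun _ : V n => (0 : ℂ)) := by
      intro l _ x
      rcases Nat.eq_zero_or_pos l with rfl | hl
      · rw [norm_iteratedFDeriv_zero, norm_zero]
      · rw [iteratedFDeriv_const_of_ne (by omega)]
        simp
    have h1 : Cl k (max (C₂ + 1) 0) (ent t' i j) := by
      refine cl_split (Ω := Ω') (f₀ := fun _ => 0) (Complex.ofRealCLM.contDiff.comp (hents i j))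
        (fun l hl y hy => ?_) h0 (fun y hy => ?_)
      · refine (iter_ofReal (hents i j) l y).trans ?_
        have h2 := (H₂ g' hg's hdp y (hbd y hy) (hdd y hy)).2.2 i j l hl
        have h3 : (fun z => (g' z).det ^ (1 / (n : ℝ)) * (g' z)⁻¹ i j) = fun z => t' z i j :=
          funext fun z => (ht'e z i j).symm
        rw [h3] at h2
        rcases Nat.eq_zero_or_pos l with rfl | hl0
        · rw [norm_iteratedFDeriv_zero] at h2 ⊢
          refine (norm_sub_le _ _).trans ?_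
          have h4 : ‖(1 : Matrix (Fin n) (Fin n) ℝ) i j‖ ≤ 1 := by
            rw [Matrix.one_apply]
            split_ifs <;> simp
          linarith
        · rw [H72.iter_const_sub (ht's i j) hl0]
          linarith
      · unfold ent
        rw [ht'off y hy, sub_self, Complex.ofReal_zero]
    refine H72.cl_mono h1 ?_
    rw [hB']
    exact max_le (by linarith) (by linarith)
  have hsmall : ∀ i j y, ‖ent t' i j y‖ ≤ ε₁ := by
    intro i j y
    by_cases hy : y ∈ Ω'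
    · have h1 : ∀ i j, |g' y i j| ≤ B := by
        intro i j
        have h2 := hcl i j 0 (Nat.zero_le _) _ hy
        rw [norm_iteratedFDeriv_zero] at h2
        rw [hg']
        exact h2
      have h2 : B⁻¹ ≤ (g' y).det := by
        rw [hg']
        exact hdet _ hy
      have h3 := H₅ (g' y) h1 h2 (ε₁ / (C₅ + 1)) (by positivity) (fun i j => by
        have h4 := hnear i j _ hy
        rw [hg']
        exact h4) i j
      have h5 : C₅ * (ε₁ / (C₅ + 1)) ≤ ε₁ := by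
        rw [mul_div_assoc', div_le_iff₀ (by positivity)]
        nlinarith
      unfold ent
      rw [Complex.norm_real, Real.norm_eq_abs, ht']
      exact h3.trans h5
    · unfold ent
      rw [ht'off y hy, sub_self, Complex.ofReal_zero, norm_zero]
      exact hε₁.le
  rw [sg_sc442 hc.2] at hst
  have hst' : St2 Ω' (sc σ') s' := by
    intro U W hU hW hdU hdW
    have g1 : ∀ x ∈ Ω, dv (sc (sgm442 c)) (fun x => U (ph t x)) x = 0 := by
      intro x hx
      have hy : ph t x ∈ Ω' := by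
        show ps t (ph t x) ∈ Ω
        rw [ps_ph ht0.ne']; exact hx
      rw [dv_ph442 ht0.ne' (smM_sc442 (sgm_smooth442 hc.1 hc.2)) hU x]
      have h1 : rs t (sc (sgm442 c)) =ᶠ[nhds (ph t x)] sc σ' := by
        filter_upwards [hO'.mem_nhds hy] with y hy
        show sgm442 c (ps t y) • (1 : Matrix (Fin n) (Fin n) ℝ) = σ' y • 1
        rw [hσ'on y hy, hc']
        rfl
      rw [dv_germ442 h1, hdU _ hy, mul_zero]
    have g2 : ∀ x ∈ Ω, dv (sg g) (fun x => W (ph t x)) x = 0 := by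
      intro x hx
      have hy : ph t x ∈ Ω' := by
        show ps t (ph t x) ∈ Ω
        rw [ps_ph ht0.ne']; exact hx
      rw [dv_ph442 ht0.ne' (H442.smM_sg442 hg hgp) hW x]
      have h1 : rs t (sg g) =ᶠ[nhds (ph t x)] s' := by
        filter_upwards [hO'.mem_nhds hy] with y hy
        rw [hs'on y hy, hg']
        rfl
      rw [dv_germ442 h1, hdW _ hy, mul_zero]
    have g3 := hst (fun x => U (ph t x)) (fun x => W (ph t x)) (hU.comp (contDiff_ph t))
      (hW.comp (contDiff_ph t)) g1 g2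
    have g4 := bl_ps t Ω hΩ.measurableSet (fun x => sg g x - sc (sgm442 c) x)
      (fun x => U (ph t x)) (fun x => W (ph t x))
      ((hU.comp (contDiff_ph t)).differentiable (by simp))
      ((hW.comp (contDiff_ph t)).differentiable (by simp))
    rw [g3, mul_zero] at g4
    have g5 : (fun y => (fun x => U (ph t x)) (ps t y)) = U := by
      funext y
      simp only [ph_ps ht0.ne']
    have g6 : (fun y => (fun x => W (ph t x)) (ps t y)) = W := by
      funext y
      simp only [ph_ps ht0.ne']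
    rw [g5, g6] at g4
    rw [← g4]
    unfold bl
    refine setIntegral_congr_fun hO'.measurableSet fun y hy => ?_
    have e1 : sc σ' y = sc (sgm442 c) (ps t y) := by
      show σ' y • (1 : Matrix (Fin n) (Fin n) ℝ) = sgm442 c (ps t y) • 1
      rw [hσ'on y hy, hc']
      rfl
    have e2 : s' y = sg g (ps t y) := by
      rw [hs'on y hy, hg']
      rfl
    simp only [e1, e2, rs]
  obtain ⟨w, K, hD, hpsh⟩ := hrig Ω' hO' hreg' hb' φ₂ t' ⟨hφ₂s, hφ₂0⟩ ht's ht'y hφ₂off ht'off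
    hcl1 hinv hcl2 hsmall (by rw [hφ2, ← hs']; exact hst')
  rw [hφ2, ← hs'] at hpsh
  have hkey : ∀ y, psh (sg g') w K y = sg (sc c') y := by
    intro y
    rw [sg_sc442 hc'0]
    by_cases hy : y ∈ Ω'
    · have hKy : K y ∈ Ω' := H158.K_mem hD hy
      have h1 := hpsh y
      unfold psh at h1 ⊢
      rw [hs'on _ hKy] at h1
      rw [h1]
      unfold sc
      rw [hσ'on y hy]
    · have hKy : K y = y := H158.K_off hD hy
      unfold psh
      rw [hKy, H158.jm_off hD hreg' hy]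
      simp only [Matrix.det_one, inv_one, one_smul, Matrix.transpose_one, Matrix.one_mul,
        Matrix.mul_one]
      rw [← sg_sc442 hc'0]
      unfold sg
      rw [hg'off y hy]
  have hiso := H695.is2 hn Ω' c' g' hc'0 hg'p w K hD hkey
  have ew : ∀ x, x + t • w (ph t x) = ps t (ph t x + w (ph t x)) := by
    intro x
    conv_lhs => rw [← ps_ph ht0.ne' x]
    rw [ph_ps ht0.ne']
    simp only [ps, smul_sub, smul_add]
    abel
  have ejm : ∀ x, jm (fun x => t • w (ph t x)) x = jm w (ph t x) := by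
    intro x
    funext i j
    simp only [jm]
    have hd : Differentiable ℝ (fun y => t • w y) :=
      (hD.sw.differentiable (by simp)).const_smul t
    have e := pd_ph j hd t x
    have e' : pd j (fun y => t • w y) (ph t x) = t • pd j w (ph t x) := by
      unfold pd
      rw [fderiv_fun_const_smul (hD.sw.differentiable (by simp) _)]
      rfl
    rw [e, e', smul_smul, inv_mul_cancel₀ ht0.ne', one_smul]
  refine ⟨fun x => t • w (ph t x), fun x => ps t (K (ph t x)), ⟨?_, ?_, ?_, ?_, ?_, ?_⟩, ?_⟩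
  · exact (hD.sw.comp (contDiff_ph t)).const_smul t
  · exact (contDiff_ps t).comp (hD.sK.comp (contDiff_ph t))
  · intro x
    show ps t (K (ph t (x + t • w (ph t x)))) = x
    rw [ew, ph_ps ht0.ne', hD.l, ps_ph ht0.ne']
  · intro y
    show ps t (K (ph t y)) + t • w (ph t (ps t (K (ph t y)))) = y
    rw [ew, ph_ps ht0.ne', hD.r, ps_ph ht0.ne']
  · intro x hx
    show t • w (ph t x) = 0
    rw [hD.z, smul_zero]
    intro h
    apply hx
    have : ps t (ph t x) ∈ Ω := h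
    rwa [ps_ph ht0.ne'] at this
  · intro x
    rw [ejm]
    exact hD.dp _
  · intro x
    have h1 := hiso (ph t x)
    rw [hg', hc'] at h1
    simp only at h1
    rw [ps_ph ht0.ne', ← ew] at h1
    rw [ejm]
    exact h1

end Vale.Agent.P088.H188
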