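import Vale.Agent.P088.H924.P.Defs
import Vale.Agent.P088.Bdl.B12

/-!
# P088, data on a patch: the row (P_UI), interior unique continuation for `lav s A w = 0`
-/

open MeasureTheory Set Filter Topology
open scoped ContDiff Matrix

noncomputable section

namespace Vale.Agent.P088.H188.PU

open Vale.Agent.P088.LR Vale.Agent.P088.LR.H158 Vale.Agent.P088.LR.U

variable {n N : ℕ}

/-- The sum of the norms of the entries. -/
def mn (M : Matrix (Fin N) (Fin N) ℂ) : ℝ := ∑ a, ∑ b, ‖M a b‖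

theorem mn_nonneg (M : Matrix (Fin N) (Fin N) ℂ) : 0 ≤ mn M :=
  Finset.sum_nonneg fun _ _ => Finset.sum_nonneg fun _ _ => norm_nonneg _

theorem norm_mulVec_le (M : Matrix (Fin N) (Fin N) ℂ) (v : Fin N → ℂ) :
    ‖M *ᵥ v‖ ≤ mn M * ‖v‖ := by
  refine (pi_norm_le_iff_of_nonneg (mul_nonneg (mn_nonneg M) (norm_nonneg v))).2 fun a => ?_
  have h1 : ‖(M *ᵥ v) a‖ ≤ ∑ b, ‖M a b‖ * ‖v‖ := by
    simp only [Matrix.mulVec, dotProduct]
    refine (norm_sum_le _ _).trans (Finset.sum_le_sum fun b _ => ?_)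
    rw [norm_mul]
    exact mul_le_mul_of_nonneg_left (norm_le_pi_norm v b) (norm_nonneg _)
  refine h1.trans ?_
  rw [← Finset.sum_mul]
  refine mul_le_mul_of_nonneg_right ?_ (norm_nonneg v)
  exact Finset.single_le_sum (f := fun a => ∑ b, ‖M a b‖)
    (fun _ _ => Finset.sum_nonneg fun _ _ => norm_nonneg _) (Finset.mem_univ a)

theorem mn_cont {P : MC n N} (hP : SmC P) : Continuous fun x => mn (P x) :=
  continuous_finsetSum _ fun a _ => continuous_finsetSum _ fun b _ => (hP a b).continuous.norm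

/-- The terms of order at most one of `lav s A w`. -/
def rem (s : MF n) (A : Cn n N) (w : V n → Fin N → ℂ) (x : V n) : Fin N → ℂ :=
  ∑ i, ((∑ j, (pd i (fun y => (s y i j : ℂ)) x • (pd j w x + A j x *ᵥ w x) +
    (s x i j : ℂ) • (pdm i (A j) x *ᵥ w x + A j x *ᵥ pd i w x))) +
      A i x *ᵥ ∑ j, (s x i j : ℂ) • (pd j w x + A j x *ᵥ w x))

/-- The bound of the coefficients. -/
def kb (s : MF n) (A : Cn n N) (x : V n) : ℝ :=
  ∑ i, ((∑ j, (‖pd i (fun y => (s y i j : ℂ)) x‖ * (1 + mn (A j x)) +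
    ‖(s x i j : ℂ)‖ * (mn (pdm i (A j) x) + mn (A j x)))) +
      mn (A i x) * ∑ j, ‖(s x i j : ℂ)‖ * (1 + mn (A j x)))

theorem smC_coe {s : MF n} (hs : SmM s) (i j : Fin n) : ContDiff ℝ ∞ fun y => (s y i j : ℂ) :=
  Complex.ofRealCLM.contDiff.comp (hs i j)

theorem lav_exp {s : MF n} (hs : SmM s) {A : Cn n N} (hA : SmU A) {w : V n → Fin N → ℂ}
    (hw : ContDiff ℝ ∞ w) (x : V n) :
    lav s A w x = (∑ i, ∑ j, (s x i j : ℂ) • pd i (pd j w) x) + rem s A w x := by
  unfold lav rem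
  rw [← Finset.sum_add_distrib]
  refine Finset.sum_congr rfl fun i _ => ?_
  have h1 : ∀ j, ContDiff ℝ ∞ fun y => (s y i j : ℂ) • cd A j w y := fun j =>
    (smC_coe hs i j).smul (contDiff_cd hA hw j)
  have h2 : pd i (fun y => ∑ j, (s y i j : ℂ) • cd A j w y) x =
      ∑ j, (pd i (fun y => (s y i j : ℂ)) x • cd A j w x +
        (s x i j : ℂ) • (pd i (pd j w) x + (pdm i (A j) x *ᵥ w x + A j x *ᵥ pd i w x))) := by
    rw [pd_sum fun j _ => dfa (h1 j) x]
    refine Finset.sum_congr rfl fun j _ => ?_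
    rw [pd_smul (smC_coe hs i j) (contDiff_cd hA hw j)]
    congr 2
    unfold cd
    rw [pd_add (dfa (contDiff_pd hw j) x) (dfa (contDiff_mulVec (hA.1 j) hw) x),
      pd_mulVec (hA.1 j) hw]
  show pd i (fun y => ∑ j, (s y i j : ℂ) • cd A j w y) x +
    A i x *ᵥ (∑ j, (s x i j : ℂ) • cd A j w x) = _
  rw [h2]
  unfold cd
  rw [← add_assoc]
  congr 1
  rw [← Finset.sum_add_distrib]
  refine Finset.sum_congr rfl fun j _ => ?_
  rw [smul_add ((s x i j : ℂ)) (pd i (pd j w) x)]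
  abel

theorem rem_le (s : MF n) (A : Cn n N) (w : V n → Fin N → ℂ) (x : V n) :
    ‖rem s A w x‖ ≤ kb s A x * (‖w x‖ + ∑ j, ‖pd j w x‖) := by
  set Z : ℝ := ‖w x‖ + ∑ j, ‖pd j w x‖ with hZ
  have z0 : ‖w x‖ ≤ Z := le_add_of_nonneg_right (Finset.sum_nonneg fun _ _ => norm_nonneg _)
  have z1 : ∀ j, ‖pd j w x‖ ≤ Z := fun j =>
    (Finset.single_le_sum (f := fun j => ‖pd j w x‖) (fun _ _ => norm_nonneg _)
      (Finset.mem_univ j)).trans (le_add_of_nonneg_left (norm_nonneg _))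
  have m0 : ∀ M : Matrix (Fin N) (Fin N) ℂ, ‖M *ᵥ w x‖ ≤ mn M * Z := fun M =>
    (norm_mulVec_le M _).trans (mul_le_mul_of_nonneg_left z0 (mn_nonneg M))
  have m1 : ∀ (M : Matrix (Fin N) (Fin N) ℂ) j, ‖M *ᵥ pd j w x‖ ≤ mn M * Z := fun M j =>
    (norm_mulVec_le M _).trans (mul_le_mul_of_nonneg_left (z1 j) (mn_nonneg M))
  have c1 : ∀ j, ‖pd j w x + A j x *ᵥ w x‖ ≤ (1 + mn (A j x)) * Z := fun j => by
    refine (norm_add_le _ _).trans ?_
    rw [add_mul, one_mul]
    exact add_le_add (z1 j) (m0 _)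
  have c2 : ∀ i j, ‖pdm i (A j) x *ᵥ w x + A j x *ᵥ pd i w x‖ ≤
      (mn (pdm i (A j) x) + mn (A j x)) * Z := fun i j => by
    refine (norm_add_le _ _).trans ?_
    rw [add_mul]
    exact add_le_add (m0 _) (m1 _ _)
  unfold rem kb
  rw [Finset.sum_mul]
  refine (norm_sum_le _ _).trans (Finset.sum_le_sum fun i _ => ?_)
  refine (norm_add_le _ _).trans ?_
  rw [add_mul]
  refine add_le_add ?_ ?_
  · rw [Finset.sum_mul]
    refine (norm_sum_le _ _).trans (Finset.sum_le_sum fun j _ => ?_)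
    refine (norm_add_le _ _).trans ?_
    rw [add_mul, norm_smul, norm_smul, mul_assoc, mul_assoc]
    exact add_le_add (mul_le_mul_of_nonneg_left (c1 j) (norm_nonneg _))
      (mul_le_mul_of_nonneg_left (c2 i j) (norm_nonneg _))
  · refine (norm_mulVec_le _ _).trans ?_
    rw [mul_assoc]
    refine mul_le_mul_of_nonneg_left ?_ (mn_nonneg _)
    rw [Finset.sum_mul]
    refine (norm_sum_le _ _).trans (Finset.sum_le_sum fun j _ => ?_)
    rw [norm_smul, mul_assoc]
    exact mul_le_mul_of_nonneg_left (c1 j) (norm_nonneg _)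

theorem kb_cont {s : MF n} (hs : SmM s) {A : Cn n N} (hA : SmU A) : Continuous (kb s A) := by
  have hp : ∀ i j, Continuous fun x => mn (pdm i (A j) x) := fun i j =>
    mn_cont (P := fun x => pdm i (A j) x) fun a b => contDiff_pd (hA.1 j a b) i
  have ha : ∀ j, Continuous fun x => mn (A j x) := fun j => mn_cont (hA.1 j)
  have hc : ∀ i j, Continuous fun x => ‖(s x i j : ℂ)‖ := fun i j =>
    (smC_coe hs i j).continuous.norm
  have hd : ∀ i j, Continuous fun x => ‖pd i (fun y => (s y i j : ℂ)) x‖ := fun i j =>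
    (contDiff_pd (smC_coe hs i j) i).continuous.norm
  unfold kb
  refine continuous_finsetSum _ fun i _ => Continuous.add ?_ ?_
  · exact continuous_finsetSum _ fun j _ => ((hd i j).mul (continuous_const.add (ha j))).add
      ((hc i j).mul ((hp i j).add (ha j)))
  · exact (ha i).mul (continuous_finsetSum _ fun j _ =>
      (hc i j).mul (continuous_const.add (ha j)))

/-- The second order inequality. -/
theorem ineq {s : MF n} (hs : SmM s) {A : Cn n N} (hA : SmU A) {w : V n → Fin N → ℂ}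
    (hw : ContDiff ℝ ∞ w) {x : V n} (h : lav s A w x = 0) :
    ‖∑ i, ∑ j, s x i j • pd i (pd j w) x‖ ≤ kb s A x * (‖w x‖ + ∑ j, ‖pd j w x‖) := by
  have e := lav_exp hs hA hw x
  rw [h] at e
  have e2 : (∑ i, ∑ j, s x i j • pd i (pd j w) x) = -rem s A w x := by
    have : (∑ i, ∑ j, (s x i j : ℂ) • pd i (pd j w) x) = -rem s A w x :=
      eq_neg_of_add_eq_zero_left e.symm
    rw [← this]
    exact Finset.sum_congr rfl fun i _ => Finset.sum_congr rfl fun j _ =>
      (Complex.coe_smul _ _).symm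
  rw [e2, norm_neg]
  exact rem_le s A w x

/-! ### transfer to the half space -/

/-- `y ↦ y + v`, from `EuclideanSpace`. -/
def ta (v : V n) (y : EYM.E n) : V n := EuclideanSpace.equiv (Fin n) ℝ y + v

theorem ta_smooth (v : V n) : ContDiff ℝ ∞ (ta v) :=
  (EuclideanSpace.equiv (Fin n) ℝ).contDiff.add contDiff_const

theorem pd_ta [NeZero n] {F : Type*} [NormedAddCommGroup F] [NormedSpace ℝ F] {g : V n → F}
    (hg : Differentiable ℝ g) (v : V n) (j : Fin n) {y : EYM.E n} (hy : 0 < y 0) :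
    EYM.pd j (fun z => g (ta v z)) y = pd j g (ta v y) := by
  have hH : EYM.Hs n ∈ 𝓝 y := by
    have ho : IsOpen {z : EYM.E n | 0 < z 0} := isOpen_lt continuous_const (by fun_prop)
    exact mem_of_superset (ho.mem_nhds hy) fun z hz => le_of_lt (show 0 < z 0 from hz)
  unfold EYM.pd pd
  rw [fderivWithin_of_mem_nhds hH]
  have h1 : HasFDerivAt (ta v)
      ((EuclideanSpace.equiv (Fin n) ℝ : EYM.E n ≃L[ℝ] V n) : EYM.E n →L[ℝ] V n) y :=
    ((EuclideanSpace.equiv (Fin n) ℝ).hasFDerivAt).add_const v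
  have h2 := (hg (ta v y)).hasFDerivAt.comp y h1
  have h3 : fderiv ℝ (fun z => g (ta v z)) y = (fderiv ℝ g (ta v y)).comp
      ((EuclideanSpace.equiv (Fin n) ℝ : EYM.E n ≃L[ℝ] V n) : EYM.E n →L[ℝ] V n) := h2.fderiv
  rw [h3]
  show fderiv ℝ g (ta v y) (EuclideanSpace.equiv (Fin n) ℝ (EYM.ev j)) = _
  congr 1

/-- Unique continuation in a ball. -/
theorem ball_ucp [NeZero n] {s : MF n} (hs : SmM s) (hp : ∀ x, (s x).PosDef) {A : Cn n N}
    (hA : SmU A) {w : V n → Fin N → ℂ} (hw : ContDiff ℝ ∞ w) {x₀ : V n} {r : ℝ}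
    (h0 : ∀ x ∈ Metric.ball x₀ r, lav s A w x = 0) {U : Set (V n)} (hU : IsOpen U)
    (hne : (U ∩ Metric.ball x₀ r).Nonempty) (hz : ∀ x ∈ U, w x = 0) :
    ∀ x ∈ Metric.ball x₀ r, w x = 0 := by
  set c : V n := Pi.single 0 (r + 1) with hc
  set v : V n := x₀ - c with hv
  set O : Set (EYM.E n) := (EuclideanSpace.equiv (Fin n) ℝ) ⁻¹' Metric.ball c r with hO
  have hta : ∀ y, ta v y ∈ Metric.ball x₀ r ↔ y ∈ O := by
    intro y
    simp only [hO, mem_preimage, Metric.mem_ball, dist_eq_norm]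
    have : ta v y - x₀ = EuclideanSpace.equiv (Fin n) ℝ y - c := by
      unfold ta; rw [hv]; abel
    rw [this]
  have hOo : IsOpen O := Metric.isOpen_ball.preimage (EuclideanSpace.equiv (Fin n) ℝ).continuous
  have hpos : ∀ y ∈ O, 0 < y 0 := by
    intro y hy
    have h1 : ‖EuclideanSpace.equiv (Fin n) ℝ y - c‖ < r := by
      simpa [hO, Metric.mem_ball, dist_eq_norm] using hy
    have h2 := (norm_le_pi_norm (EuclideanSpace.equiv (Fin n) ℝ y - c) 0).trans_lt h1
    have h3 : (EuclideanSpace.equiv (Fin n) ℝ y - c) 0 = y 0 - (r + 1) := by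
      simp [hc]
    rw [h3, Real.norm_eq_abs, abs_lt] at h2
    linarith [h2.1]
  have hconn : IsPreconnected O :=
    ((convex_ball c r).linear_preimage
      (EuclideanSpace.equiv (Fin n) ℝ).toLinearEquiv.toLinearMap).isPreconnected
  have hnh : ∀ y ∈ O, 𝓝[EYM.Hs n] y = 𝓝 y := fun y hy =>
    nhdsWithin_eq_nhds.2 (mem_of_superset (hOo.mem_nhds hy) fun z hz => le_of_lt (hpos z hz))
  have hR : EYM.RelOpen O :=
    ⟨O, hOo, (inter_eq_self_of_subset_left fun z hz => le_of_lt (hpos z hz)).symm⟩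
  have e1 : ∀ k, ∀ y ∈ O, EYM.pd k (fun z => w (ta v z)) y = pd k w (ta v y) := fun k y hy =>
    pd_ta (hw.differentiable (by simp)) v k (hpos y hy)
  have e2 : ∀ j k, ∀ y ∈ O, EYM.pd j (EYM.pd k fun z => w (ta v z)) y =
      pd j (pd k w) (ta v y) := fun j k y hy => by
    rw [hR.pd_congr (fun z hz => e1 k z hz) hy j]
    exact pd_ta ((contDiff_pd hw k).differentiable (by simp)) v j (hpos y hy)
  have key := EYM.ucpV n (Fin N → ℂ) (fun j k y => s (ta v y) j k) O hOo hpos hconn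
    (fun j k => ((hs j k).comp (ta_smooth v)).contDiffOn) (fun y _ => hp (ta v y))
    (fun z => w (ta v z)) (hw.comp (ta_smooth v)).contDiffOn
    (fun y hy => by
      rw [hnh y hy]
      refine ⟨kb s A (ta v y) + 1, ?_⟩
      have hk : ∀ᶠ z in 𝓝 y, kb s A (ta v z) < kb s A (ta v y) + 1 :=
        ((kb_cont hs hA).comp (ta_smooth v).continuous).continuousAt.eventually_lt
          continuousAt_const (by simp)
      filter_upwards [hk, hOo.mem_nhds hy] with z hz hzO
      simp only [e2 _ _ z hzO, e1 _ z hzO]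
      refine (ineq hs hA hw (h0 _ ((hta z).2 hzO))).trans ?_
      exact mul_le_mul_of_nonneg_right hz.le
        (add_nonneg (norm_nonneg _) (Finset.sum_nonneg fun _ _ => norm_nonneg _)))
    (O ∩ ta v ⁻¹' U) (hOo.inter (hU.preimage (ta_smooth v).continuous)) inter_subset_left ?_
    (fun z hz' => hz _ hz'.2)
  · intro x hx
    have hx2 : ta v ((EuclideanSpace.equiv (Fin n) ℝ).symm (x - v)) = x := by
      unfold ta
      rw [ContinuousLinearEquiv.apply_symm_apply, sub_add_cancel]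
    have := key _ ((hta _).1 (by rw [hx2]; exact hx))
    simpa only [hx2] using this
  · obtain ⟨x, hxU, hxB⟩ := hne
    have hx2 : ta v ((EuclideanSpace.equiv (Fin n) ℝ).symm (x - v)) = x := by
      unfold ta
      rw [ContinuousLinearEquiv.apply_symm_apply, sub_add_cancel]
    exact ⟨_, (hta _).1 (by rw [hx2]; exact hxB), by rw [mem_preimage, hx2]; exact hxU⟩

/-- **The row (P_UI)**. -/
theorem ui : P.RowUI := by
  intro n N s A hs hp hA D hD hDc w hw h0 U hU hUD hUn hz x hx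
  rcases Nat.eq_zero_or_pos n with hn | hn
  · subst hn
    obtain ⟨y, hy⟩ := hUn
    rw [Subsingleton.elim x y]
    exact hz y hy
  · have : NeZero n := ⟨hn.ne'⟩
    set Z : Set (V n) := interior {y | w y = 0} with hZ
    have hZo : IsOpen Z := isOpen_interior
    have hUZ : U ⊆ Z := interior_maximal (fun y hy => hz y hy) hU
    have hcl : closure Z ∩ D ⊆ Z := by
      rintro y ⟨hy, hyD⟩
      obtain ⟨r, hr, hB⟩ := Metric.isOpen_iff.1 hD y hyD
      have hne : (Z ∩ Metric.ball y r).Nonempty := by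
        obtain ⟨z, hz1, hz2⟩ := mem_closure_iff.1 hy _ Metric.isOpen_ball
          (Metric.mem_ball_self hr)
        exact ⟨z, hz2, hz1⟩
      have h := ball_ucp hs hp hA hw (fun z hz => h0 z (hB hz)) hZo hne
        (fun z hz => (interior_subset hz : z ∈ {y | w y = 0}))
      exact interior_maximal (fun z hz => h z hz) Metric.isOpen_ball (Metric.mem_ball_self hr)
    have hsub : D ⊆ Z := hDc.subset_of_closure_inter_subset hZo
      (hUn.imp fun y hy => ⟨hUD hy, hUZ hy⟩) hcl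
    exact (interior_subset (hsub hx) : x ∈ {y | w y = 0})

end Vale.Agent.P088.H188.PU
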