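import Vale.Agent.P088.H442.C.Defs
import Vale.Agent.P088.H952.CFRot

/-!
# P088, Theorem C: the reflections about the centre of the cube act on the data
-/

open MeasureTheory Set
open scoped ContDiff Matrix

noncomputable section

namespace Vale.Agent.P088.H188

open Vale.Agent.P088.LR Vale.Agent.P088.LR.CF Vale.Agent.P088.LR.CF.H952 Vale.Agent.P088.LR.CC

variable {n : ℕ} {R : Matrix (Fin n) (Fin n) ℝ}

theorem tr_one (h : Rf R) : tr R (fun _ => (1 : Matrix (Fin n) (Fin n) ℝ)) = fun _ => 1 := by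
  funext x
  unfold tr
  rw [Matrix.mul_one, mul_self_eq h]

theorem cx_rho (h : Rf R) (φ : V n → ℝ) :
    (fun x => cx (fun y => φ (rho R y)) (rho R x)) = cx φ := by
  funext x
  show ((φ (rho R (rho R x)) : ℝ) : ℂ) = _
  rw [rho_rho h]
  rfl

theorem contDiff_cx {φ : V n → ℝ} (hφ : ContDiff ℝ ∞ φ) : ContDiff ℝ ∞ (cx φ) :=
  Complex.ofRealCLM.contDiff.comp hφ

/-- the base -/
theorem ba_tr (h : Rf R) {φ q₀ : V n → ℝ} (B : Ba φ q₀) :
    Ba (fun x => φ (rho R x)) (fun x => q₀ (rho R x)) where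
  p := ⟨B.p.1.comp (contDiff_rho R), fun x => B.p.2 _⟩
  one := fun x hx => B.one _ fun hh => hx ((rho_mem_bal h).1 hh)
  sq := B.sq.comp (contDiff_rho R)
  eq := by
    intro x
    have h1 := dv_tr h (s := fun _ => (1 : Matrix (Fin n) (Fin n) ℝ)) (fun i j => contDiff_const)
      (contDiff_cx (B.p.1.comp (contDiff_rho R))) x
    rw [tr_one h] at h1
    have h2 : (fun x => cx (φ ∘ rho R) (rho R x)) = cx φ := cx_rho h φ
    rw [h2, B.eq] at h1
    exact h1

theorem smM_smul {φ : V n → ℝ} (hφ : ContDiff ℝ ∞ φ) {t : MF n} (ht : SmM t) :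
    SmM fun x => φ x ^ 2 • t x := by
  intro i j
  exact (hφ.pow 2).mul (ht i j)

/-- the data -/
theorem bt_tr (h : Rf R) {Ω : Set (V n)} {φ q₀ : V n → ℝ} {t : MF n} {q : V n → ℝ}
    (B : Bt Ω φ q₀ t q) : Bt (rho R ⁻¹' Ω) (fun x => φ (rho R x)) (fun x => q₀ (rho R x))
      (tr R t) (fun x => q (rho R x)) where
  ba := ba_tr h B.ba
  op := B.op.preimage (contDiff_rho R).continuous
  reg := by
    have h1 : rho R = hom h := rfl
    rw [h1, ← (hom h).preimage_closure, ← (hom h).preimage_interior, B.reg]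
  sub := fun x hx => (rho_mem_bal h).1 (B.sub hx)
  sm := smM_tr h B.sm
  sy := symm_tr h B.sy
  off := by
    intro x hx
    have h1 : rho R x ∉ Ω := hx
    unfold tr
    rw [B.off _ h1, Matrix.mul_one, mul_self_eq h]
  sq := B.sq.comp (contDiff_rho R)
  eq := by
    intro x
    have h1 := dv_tr h B.sm (contDiff_cx (B.ba.p.1.comp (contDiff_rho R))) x
    have h2 : (fun x => cx (φ ∘ rho R) (rho R x)) = cx φ := cx_rho h φ
    rw [h2, B.eq] at h1
    exact h1
  st := by
    have h1 := st2_tr h (smM_sc (B.ba.p.1.pow 2)) (smM_smul B.ba.p.1 B.sm) B.st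
    rw [tr_sc h] at h1
    have h2 : tr R (fun x => φ x ^ 2 • t x) = fun x => φ (rho R x) ^ 2 • tr R t x := by
      funext x
      unfold tr
      rw [Matrix.mul_smul, Matrix.smul_mul]
    rw [h2] at h1
    exact h1

theorem ent_tr (h : Rf R) (t : MF n) (i j : Fin n) (x : V n) :
    ent (tr R t) i j x = ∑ a, ∑ b, (R i a : ℂ) * R j b * ent t a b (rho R x) := by
  have h1 : (1 : Matrix (Fin n) (Fin n) ℝ) i j = ∑ a, ∑ b, R i a *
      (1 : Matrix (Fin n) (Fin n) ℝ) a b * R j b := by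
    have h2 := tr_apply h (fun _ => (1 : Matrix (Fin n) (Fin n) ℝ)) x i j
    rw [tr_one h] at h2
    exact h2
  unfold ent
  rw [tr_apply h, h1, ← Finset.sum_sub_distrib]
  push_cast
  refine Finset.sum_congr rfl fun a _ => ?_
  rw [← Finset.sum_sub_distrib]
  refine Finset.sum_congr rfl fun b _ => ?_
  ring

theorem contDiff_ent {t : MF n} (ht : SmM t) (i j : Fin n) : ContDiff ℝ ∞ (ent t i j) :=
  Complex.ofRealCLM.contDiff.comp ((ht i j).sub contDiff_const)

theorem cl_ent_tr (h : Rf R) (hn : 1 ≤ n) {t : MF n} (ht : SmM t) {M : ℕ} {c : ℝ}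
    (hc : ∀ a b, Cl M c (ent t a b)) (i j : Fin n) :
    Cl M ((n : ℝ) ^ (M + 2) * c) (ent (tr R t) i j) := by
  have h1 : ent (tr R t) i j = fun x => ∑ a, (R i a : ℂ) * ∑ b, (R j b : ℂ) *
      ent t a b (rho R x) := by
    funext x
    rw [ent_tr h]
    refine Finset.sum_congr rfl fun a _ => ?_
    rw [Finset.mul_sum]
    refine Finset.sum_congr rfl fun b _ => ?_
    ring
  have hs : ∀ a b, ContDiff ℝ ∞ fun x => ent t a b (rho R x) := fun a b =>
    (contDiff_ent ht a b).comp (contDiff_rho R)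
  have h2 : ∀ a, Cl M ((n : ℝ) * ((n : ℝ) ^ M * c)) fun x => ∑ b, (R j b : ℂ) *
      ent t a b (rho R x) := fun a =>
    cl_sum (f := fun b x => ent t a b (rho R x)) (c := fun b => R j b) (hs a)
      (fun b => H952.abs_le h j b) fun b => cl_rho h hn (contDiff_ent ht a b) (hc a b)
  have h3 := cl_sum (f := fun a x => ∑ b, (R j b : ℂ) * ent t a b (rho R x))
    (c := fun a => R i a) (fun a => ContDiff.sum fun b _ => contDiff_const.mul (hs a b))
    (fun a => H952.abs_le h i a) h2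
  have h4 : (n : ℝ) * ((n : ℝ) * ((n : ℝ) ^ M * c)) = (n : ℝ) ^ (M + 2) * c := by ring
  rw [h4] at h3
  rw [h1]
  exact h3

theorem sz_tr (h : Rf R) (hn : 1 ≤ n) {t : MF n} (ht : SmM t) {q₀ q : V n → ℝ}
    (hq₀ : ContDiff ℝ ∞ q₀) (hq : ContDiff ℝ ∞ q) {M : ℕ} {a : ℝ} (hs : Sz M a t q₀ q) :
    Sz M ((n : ℝ) ^ (M + 2) * a) (tr R t) (fun x => q₀ (rho R x)) (fun x => q (rho R x)) := by
  have hn1 : (1 : ℝ) ≤ n := by exact_mod_cast hn
  refine ⟨fun i j => cl_ent_tr h hn ht hs.1 i j, ?_⟩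
  have h1 := cl_rho h hn ((contDiff_cx hq).sub (contDiff_cx hq₀)) hs.2
  refine cl_mono h1 ?_
  exact mul_le_mul_of_nonneg_right (pow_le_pow_right₀ hn1 (by omega)) (cl_nonneg hs.2)

theorem cl_cx (h : Rf R) (hn : 1 ≤ n) {φ : V n → ℝ} (hφ : ContDiff ℝ ∞ φ) {M : ℕ} {B : ℝ}
    (hc : Cl M B (cx φ)) : Cl M ((n : ℝ) ^ M * B) (cx fun x => φ (rho R x)) :=
  cl_rho h hn (contDiff_cx hφ) hc

theorem ent_zero {Ω : Set (V n)} {φ q₀ : V n → ℝ} {t : MF n} {q : V n → ℝ}
    (B : Bt Ω φ q₀ t q) (i j : Fin n) (x : V n) (hx : x ∉ core n) : ent t i j x = 0 := by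
  unfold ent
  rw [B.off x fun hh => hx (bal_sub_core (B.sub hh))]
  simp

theorem ft_ent_tr (h : Rf R) {Ω : Set (V n)} {φ q₀ : V n → ℝ} {t : MF n} {q : V n → ℝ}
    (B : Bt Ω φ q₀ t q) (i j : Fin n) (ζ : V n) : ft (ent (tr R t) i j) ζ =
      ph R ζ * ∑ a, ∑ b, (R i a : ℂ) * R j b * ft (ent t a b) (R *ᵥ ζ) := by
  have h2 : ∀ a b, Integrable fun x => ent t a b (rho R x) * ex (-ζ) x := by
    intro a b
    refine (((contDiff_ent B.sm a b).continuous.comp (contDiff_rho R).continuous).mul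
      (continuous_ex _)).integrable_of_hasCompactSupport ?_
    refine HasCompactSupport.intro isCompact_core fun x hx => ?_
    have h3 : ent t a b (rho R x) = 0 := by
      unfold ent
      rw [B.off _ fun hh => hx (bal_sub_core ((rho_mem_bal h).1 (B.sub hh)))]
      simp
    show ent t a b (rho R x) * ex (-ζ) x = 0
    rw [h3, zero_mul]
  have h3 : ft (ent (tr R t) i j) ζ =
      ∑ a, ∑ b, (R i a : ℂ) * R j b * ft (fun x => ent t a b (rho R x)) ζ := by
    unfold ft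
    have h4 : ∀ x, ent (tr R t) i j x * ex (-ζ) x =
        ∑ a, ∑ b, (R i a : ℂ) * R j b * (ent t a b (rho R x) * ex (-ζ) x) := by
      intro x
      rw [ent_tr h, Finset.sum_mul]
      refine Finset.sum_congr rfl fun a _ => ?_
      rw [Finset.sum_mul]
      refine Finset.sum_congr rfl fun b _ => ?_
      ring
    simp only [h4]
    rw [integral_finsetSum _ fun a _ => integrable_finsetSum _ fun b _ => (h2 a b).const_mul _]
    refine Finset.sum_congr rfl fun a _ => ?_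
    rw [integral_finsetSum _ fun b _ => (h2 a b).const_mul _]
    refine Finset.sum_congr rfl fun b _ => ?_
    rw [integral_const_mul]
  rw [h3]
  simp only [ft_rho h, Finset.mul_sum]
  refine Finset.sum_congr rfl fun a _ => Finset.sum_congr rfl fun b _ => ?_
  ring

/-- the quadratic form -/
theorem qf_tr (h : Rf R) {Ω : Set (V n)} {φ q₀ : V n → ℝ} {t : MF n} {q : V n → ℝ}
    (B : Bt Ω φ q₀ t q) (ξ : V n) (v : Fin n → ℂ) : qf (tr R t) (R *ᵥ ξ) v =
      ph R (R *ᵥ ξ) * qf t ξ (fun a => ∑ j, v j * R j a) := by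
  unfold qf
  simp only [ft_ent_tr h B, mv_mv h, Finset.mul_sum, Finset.sum_mul]
  calc ∑ i, ∑ j, ∑ a, ∑ b, v i * v j * (ph R (R *ᵥ ξ) * ((R i a : ℂ) * R j b * ft (ent t a b) ξ))
      = ∑ i, ∑ a, ∑ j, ∑ b, v i * v j * (ph R (R *ᵥ ξ) * ((R i a : ℂ) * R j b *
          ft (ent t a b) ξ)) := by
        refine Finset.sum_congr rfl fun i _ => ?_
        rw [Finset.sum_comm]
    _ = ∑ a, ∑ i, ∑ b, ∑ j, v i * v j * (ph R (R *ᵥ ξ) * ((R i a : ℂ) * R j b *
          ft (ent t a b) ξ)) := by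
        rw [Finset.sum_comm]
        refine Finset.sum_congr rfl fun a _ => Finset.sum_congr rfl fun i _ => ?_
        rw [Finset.sum_comm]
    _ = ∑ a, ∑ b, ∑ i, ∑ j, v i * v j * (ph R (R *ᵥ ξ) * ((R i a : ℂ) * R j b *
          ft (ent t a b) ξ)) := by
        refine Finset.sum_congr rfl fun a _ => ?_
        rw [Finset.sum_comm]
    _ = _ := by
        refine Finset.sum_congr rfl fun a _ => Finset.sum_congr rfl fun b _ => ?_
        rw [Finset.sum_comm]
        refine Finset.sum_congr rfl fun j _ => Finset.sum_congr rfl fun i _ => ?_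
        ring

end Vale.Agent.P088.H188
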